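import Vale.Agent.P243.Defs
import Vale.Agent.P243.Final

open Vale.Agent.P243

/-- The regular tetrahedron `K` has a finite covering by cylinders whose total base area is at
most `0.4996 * A_min(K)`, hence less than half of `A_min(K)`; its directionwise relative area is
less than one half as well. -/
theorem Vale.Agent.Results.P243.A_full.result :
    IsCompact tetrahedron ∧ Convex ℝ tetrahedron ∧ (interior tetrahedron).Nonempty ∧
    0 < minProjArea tetrahedron ∧ minProjArea tetrahedron < ⊤ ∧
    ∃ (m : ℕ) (u : Fin m → Space) (B : Fin m → Set Space),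
      (∀ i, ‖u i‖ = 1) ∧ (∀ i, ∀ b ∈ B i, inner ℝ (u i) b = 0) ∧
      (∀ i, MeasurableSet (B i)) ∧ (∀ i, area (B i) < ⊤) ∧
      tetrahedron ⊆ ⋃ i, cylinder (u i) (B i) ∧
      ∑ i, area (B i) ≤ ENNReal.ofReal (4996 / 10000) * minProjArea tetrahedron ∧
      ∑ i, area (B i) < minProjArea tetrahedron / 2 ∧
      ∑ i, area (B i) / projArea tetrahedron (u i) < 1 / 2 :=
  final
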